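import Vale.Agent.P124.H186.Defs

/-!
P124, piece T6 (second seat, helper28): elementary preparations.
Minimum over `{0..n}`, ball property of `W × Ed`, one-point extensions of pseudometrics.
-/

namespace P124H28

open P124H186

/-- minimum of `f` over `{0..n}` -/
noncomputable def mn (n : ℕ) (f : ℕ → ℝ) : ℝ :=
  (Finset.range (n + 1)).inf' ⟨0, by simp⟩ f

theorem mn_le {n : ℕ} (f : ℕ → ℝ) {l : ℕ} (hl : l ≤ n) : mn n f ≤ f l :=
  Finset.inf'_le _ (by simp; omega)

theorem mn_mem (n : ℕ) (f : ℕ → ℝ) : ∃ l ≤ n, mn n f = f l := by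
  obtain ⟨l, hl, h⟩ := Finset.exists_mem_eq_inf' (s := Finset.range (n + 1)) ⟨0, by simp⟩ f
  exact ⟨l, by simp at hl; omega, h⟩

theorem le_mn {n : ℕ} {f : ℕ → ℝ} {x : ℝ} (h : ∀ l ≤ n, x ≤ f l) : x ≤ mn n f := by
  obtain ⟨l, hl, e⟩ := mn_mem n f
  rw [e]; exact h l hl

/-- ball property of a subset gives the ball property of the subtype -/
theorem ball_sub {E : Type*} [PseudoMetricSpace E] {Ed : Set E} (hE : BallPropOn Ed) :
    BallProp Ed := by
  intro n x r h
  obtain ⟨y, hy, hd⟩ := hE n (fun i => (x i : E)) r (fun i _ => (x i).2) h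
  exact ⟨⟨y, hy⟩, hd⟩

theorem ball_prod {X Y : Type*} [PseudoMetricSpace X] [PseudoMetricSpace Y]
    (hX : BallProp X) (hY : BallProp Y) : BallProp (X × Y) := by
  intro n x r h
  obtain ⟨a, ha⟩ := hX n (fun i => (x i).1) r
    (fun i hi j hj => le_trans (le_max_left _ _) (h i hi j hj))
  obtain ⟨c, hc⟩ := hY n (fun i => (x i).2) r
    (fun i hi j hj => le_trans (le_max_right _ _) (h i hi j hj))
  exact ⟨(a, c), fun i hi => max_le (ha i hi) (hc i hi)⟩

/-- Katetov extension by the minimal function: distances `mn_l (d l + dist (x l) (x k))`. -/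
theorem kat_min {W : Type*} [PseudoMetricSpace W] (hW : KatProp W) (n : ℕ) (x : ℕ → W)
    (d : ℕ → ℝ) (h : ∀ i ≤ n, ∀ j ≤ n, dist (x i) (x j) ≤ d i + d j) :
    ∃ w, (∀ k ≤ n, dist w (x k) ≤ d k) ∧
      ∀ k ≤ n, ∃ l ≤ n, dist w (x k) = d l + dist (x l) (x k) := by
  have hA : ∀ i ≤ n, ∀ j ≤ n, mn n (fun k => d k + dist (x k) (x i))
      - mn n (fun k => d k + dist (x k) (x j)) ≤ dist (x i) (x j) := by
    intro i hi j hj
    obtain ⟨l, hl, e⟩ := mn_mem n (fun k => d k + dist (x k) (x j))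
    have h1 := mn_le (fun k => d k + dist (x k) (x i)) hl
    have h2 : dist (x l) (x i) ≤ dist (x l) (x j) + dist (x j) (x i) := dist_triangle _ _ _
    have h3 := dist_comm (x i) (x j)
    simp only [e] at *
    linarith
  have hB : ∀ i ≤ n, ∀ j ≤ n, dist (x i) (x j) ≤ mn n (fun k => d k + dist (x k) (x i))
      + mn n (fun k => d k + dist (x k) (x j)) := by
    intro i hi j hj
    obtain ⟨l, hl, e⟩ := mn_mem n (fun k => d k + dist (x k) (x j))
    obtain ⟨l', hl', e'⟩ := mn_mem n (fun k => d k + dist (x k) (x i))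
    simp only [e, e']
    have h1 := h l' hl' l hl
    have h2 : dist (x i) (x j) ≤ dist (x i) (x l') + dist (x l') (x l) + dist (x l) (x j) :=
      dist_triangle4 _ _ _ _
    have h3 := dist_comm (x i) (x l')
    linarith
  obtain ⟨w, hw⟩ := hW n x (fun i => mn n (fun k => d k + dist (x k) (x i))) hA hB
  refine ⟨w, fun i hi => ?_, fun i hi => ?_⟩
  · rw [hw i hi]
    have := mn_le (fun j => d j + dist (x j) (x i)) hi
    simpa using this
  · rw [hw i hi]
    exact mn_mem n _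

/-- Katetov property implies the ball property. -/
theorem ball_of_kat {W : Type*} [PseudoMetricSpace W] (hW : KatProp W) : BallProp W := by
  intro n x r h
  obtain ⟨w, hw, -⟩ := kat_min hW n x r h
  exact ⟨w, hw⟩

/-- the one-point extension of `D` by the distances `d` to the new point `N` -/
noncomputable def extD (N : ℕ) (D : ℕ → ℕ → ℝ) (d : ℕ → ℝ) (i j : ℕ) : ℝ :=
  if i = N then (if j = N then 0 else d j) else (if j = N then d i else D i j)

theorem extD_old {N : ℕ} {D : ℕ → ℕ → ℝ} {d : ℕ → ℝ} {i j : ℕ} (hi : i < N) (hj : j < N) :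
    extD N D d i j = D i j := by
  have h1 : i ≠ N := by omega
  have h2 : j ≠ N := by omega
  simp [extD, h1, h2]

theorem extD_new {N : ℕ} {D : ℕ → ℕ → ℝ} {d : ℕ → ℝ} {j : ℕ} (hj : j < N) :
    extD N D d N j = d j := by
  have h2 : j ≠ N := by omega
  simp [extD, h2]

theorem extD_new' {N : ℕ} {D : ℕ → ℕ → ℝ} {d : ℕ → ℝ} {j : ℕ} (hj : j < N) :
    extD N D d j N = d j := by
  have h2 : j ≠ N := by omega
  simp [extD, h2]

theorem extD_self {N : ℕ} {D : ℕ → ℕ → ℝ} {d : ℕ → ℝ} : extD N D d N N = 0 := by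
  simp [extD]

/-- the functionals coming from the points of the cube -/
def SS (z : ℕ → Z) (t : ℕ) : Set (ℕ → ℝ) :=
  {s | ∃ q : Q, ∃ c : ℝ, (c = 1 ∨ c = -1) ∧ ∀ i ≤ t, s i = c * z i q}

/-- the geometric part of a state -/
def geo (D : ℕ → ℕ → ℝ) (isA : ℕ → Prop) (P : ℕ → ℕ → ℝ) (z : ℕ → Z) : Geo :=
  ⟨D, isA, P, SS z⟩

theorem abs_sub_le_dist (z z' : Z) (q : Q) : |z q - z' q| ≤ dist z z' := by
  have := ContinuousMap.dist_apply_le_dist (f := z) (g := z') q
  rwa [Real.dist_eq] at this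

theorem SS_abs {z : ℕ → Z} {t : ℕ} {s : ℕ → ℝ} (hs : s ∈ SS z t) {i j : ℕ} (hi : i ≤ t)
    (hj : j ≤ t) : |s i - s j| ≤ dist (z i) (z j) := by
  obtain ⟨q, c, hc, h⟩ := hs
  rw [h i hi, h j hj]
  have := abs_sub_le_dist (z i) (z j) q
  rcases hc with rfl | rfl
  · simpa using this
  · have e : (-1 : ℝ) * z i q - -1 * z j q = -(z i q - z j q) := by ring
    rw [e, abs_neg]; exact this

theorem SS_congr {z z' : ℕ → Z} {t : ℕ} (h : ∀ i ≤ t, z i = z' i) : SS z t = SS z' t := by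
  ext s
  constructor
  · rintro ⟨q, c, hc, hs⟩
    exact ⟨q, c, hc, fun i hi => by rw [hs i hi, h i hi]⟩
  · rintro ⟨q, c, hc, hs⟩
    exact ⟨q, c, hc, fun i hi => by rw [hs i hi, h i hi]⟩

end P124H28
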