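import Vale.Agent.P124.H28.Step

/-!
P124, piece T6 (second seat, helper28): scheduling of the moves and the infinite play.
-/

namespace P124H28

open P124H186

variable {W : Type} [MetricSpace W] {E : Type} [NormedAddCommGroup E] {Ed : Set E}

/-- the three kinds of used `W`-points of a state -/
def pt (s : St W E Ed) (w : Fin 3) (a : ℕ) : W :=
  if w = 0 then s.U' a else if w = 1 then (s.m a).1 else s.V a

theorem pt_agr {n : ℕ} {s s' : St W E Ed} (h : Agr n s s') (w : Fin 3) {a : ℕ} (ha : a ≤ n) :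
    pt s' w a = pt s w a := by
  unfold pt
  rw [h.U' a ha, h.m a ha, h.V a ha]

abbrev Task : Type := Bool × (Fin 3 × ℕ) × (Fin 3 × ℕ) × ℕ × ℕ

/-- the task `τ` is served by the point `n+1` of `s'` (points of `s` up to `n`) -/
def Served (ec : ℕ → Ed) (zc : ℕ → Z) (n : ℕ) (s s' : St W E Ed) (τ : Task) : Prop :=
  (τ.1 = true → s'.U' (n + 1) = pt s τ.2.1.1 (min τ.2.1.2 n) ∧
    s'.e' (n + 1) = ec τ.2.2.2.1 ∧ s'.z (n + 1) = zc τ.2.2.2.2) ∧
  (τ.1 = false → s'.m (n + 1) = (pt s τ.2.1.1 (min τ.2.1.2 n), ec τ.2.2.2.1) ∧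
    s'.V (n + 1) = pt s τ.2.2.1.1 (min τ.2.2.1.2 n))

variable {Good : ℕ → Geo → (ℕ → W × Ed) → Prop}

theorem Full.step (hS : Strat (W × Ed) Good) (hX : BallProp (W × Ed)) (hE : BallProp Ed)
    (hW : KatProp W) (ec : ℕ → Ed) (zc : ℕ → Z) (hzc : ∀ i, FinDep (zc i)) {n : ℕ}
    {s : St W E Ed} (h : Full Good n s) (τ : Task) :
    ∃ s', Full Good (n + 1) s' ∧ Agr n s s' ∧ Served ec zc n s s' τ := by
  obtain ⟨b, r⟩ := τ
  cases b with
  | true =>
    obtain ⟨s', h1, h2, h3, h4, h5⟩ := h.stepA hS hX hW (pt s r.1.1 (min r.1.2 n)) (ec r.2.2.1)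
      (zc r.2.2.2) (hzc _)
    exact ⟨s', h1, h2, fun _ => ⟨h3, h4, h5⟩, fun hf => by simp at hf⟩
  | false =>
    obtain ⟨s', h1, h2, h3, h4⟩ := h.stepB hS hE hW (pt s r.1.1 (min r.1.2 n), ec r.2.2.1)
      (pt s r.2.1.1 (min r.2.1.2 n))
    exact ⟨s', h1, h2, fun hf => by simp at hf, fun _ => ⟨h3, h4⟩⟩

theorem full_zero (hS : Strat (W × Ed) Good) (w₀ : W) (e₀ : Ed) :
    Full Good 0 (⟨fun _ => (w₀, e₀), fun _ => w₀, fun _ => e₀, fun _ => w₀, fun _ => 0,
      fun _ _ => 0, fun _ => False, fun _ _ => 0⟩ : St W E Ed) := by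
  have hi : Inv 0 (⟨fun _ => (w₀, e₀), fun _ => w₀, fun _ => e₀, fun _ => w₀, fun _ => 0,
      fun _ _ => 0, fun _ => False, fun _ _ => 0⟩ : St W E Ed) := by
    refine ⟨fun _ _ => rfl, fun _ _ => rfl, fun _ _ _ _ _ _ => by simp, fun t ht => by omega,
      fun t ht => by omega, fun _ _ => ⟨0, fun _ _ _ => rfl⟩, ?_, ?_, ?_, ?_, ?_, ?_, ?_⟩
    all_goals
      intro i _ j _
      simp
  exact ⟨hi, hS.zero _ _ hi.valid⟩

theorem T6_aux (hS : Strat (W × Ed) Good) (hX : BallProp (W × Ed)) (hE : BallProp Ed)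
    (hW : KatProp W) (w₀ : W) (e₀ : Ed) (ec : ℕ → Ed) (zc : ℕ → Z) (hzc : ∀ i, FinDep (zc i)) :
    ∃ f : ℕ → St W E Ed, (∀ n, Full Good n (f n)) ∧ (∀ k n, k ≤ n → Agr k (f k) (f n)) ∧
      (∀ (τ : Task) (N : ℕ), ∃ n, N ≤ n ∧ Served ec zc n (f n) (f (n + 1)) τ) ∧
      ((f 0).U' 0 = w₀ ∧ (f 0).m 0 = (w₀, e₀) ∧ (f 0).V 0 = w₀ ∧ (f 0).e' 0 = e₀ ∧
        (f 0).z 0 = 0) := by
  obtain ⟨task, htask⟩ := exists_surjective_nat Task
  choose F hF1 hF2 hF3 using fun (n : ℕ) (s : {s : St W E Ed // Full Good n s}) =>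
    s.2.step hS hX hE hW ec zc hzc (task (Nat.unpair n).1)
  let g : (n : ℕ) → {s : St W E Ed // Full Good n s} := fun n =>
    Nat.rec (motive := fun n => {s : St W E Ed // Full Good n s})
      ⟨_, full_zero hS w₀ e₀⟩ (fun n s => ⟨F n s, hF1 n s⟩) n
  have hg : ∀ n, (g (n + 1)).1 = F n (g n) := fun n => rfl
  have hag : ∀ k n, k ≤ n → Agr k (g k).1 (g n).1 := by
    intro k n hkn
    induction n, hkn using Nat.le_induction with
    | base => exact Agr.refl _ _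
    | succ n hn ih =>
      refine ih.trans (k := n) ?_ hn
      rw [hg]
      exact hF2 n (g n)
  refine ⟨fun n => (g n).1, fun n => (g n).2, hag, ?_, rfl, rfl, rfl, rfl, rfl⟩
  intro τ N
  obtain ⟨c, hc⟩ := htask τ
  refine ⟨Nat.pair c N, Nat.right_le_pair _ _, ?_⟩
  change Served ec zc _ _ (g (Nat.pair c N + 1)).1 τ
  rw [hg]
  have := hF3 (Nat.pair c N) (g (Nat.pair c N))
  rwa [Nat.unpair_pair, hc] at this

/-- **T6**, with T5 as a hypothesis (in the form of `Strat`). -/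
theorem T6_of (hS : Strat (W × Ed) Good) (hW : KatProp W) [Nonempty W] (hE : BallPropOn Ed)
    (h0 : (0 : E) ∈ Ed) (ec : ℕ → E) (hec : ∀ i, ec i ∈ Ed)
    (zc : ℕ → Z) (hzc : ∀ i, FinDep (zc i)) : Nonempty (Play W E ec zc) := by
  have w₀ : W := Classical.arbitrary W
  obtain ⟨f, hf, hag, hserve, i1, i2, i3, i4, i5⟩ := T6_aux hS
    (ball_prod (ball_of_kat hW) (ball_sub hE)) (ball_sub hE) hW w₀ (⟨0, h0⟩ : Ed)
    (fun i => ⟨ec i, hec i⟩) zc hzc
  -- values at late times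
  have eU' : ∀ k n, k ≤ n → (f n).U' k = (f k).U' k := fun k n h => (hag k n h).U' k le_rfl
  have em : ∀ k n, k ≤ n → (f n).m k = (f k).m k := fun k n h => (hag k n h).m k le_rfl
  have eV : ∀ k n, k ≤ n → (f n).V k = (f k).V k := fun k n h => (hag k n h).V k le_rfl
  have ee' : ∀ k n, k ≤ n → (f n).e' k = (f k).e' k := fun k n h => (hag k n h).e' k le_rfl
  have ez : ∀ k n, k ≤ n → (f n).z k = (f k).z k := fun k n h => (hag k n h).z k le_rfl
  have hpt : ∀ (w : Fin 3) (a n : ℕ), a ≤ n → pt (f n) w a = pt (f a) w a := fun w a n h =>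
    pt_agr (hag a n h) w le_rfl
  have hused : ∀ y ∈ (Set.range (fun k => (f k).U' k) ∪ Set.range (fun k => ((f k).m k).1) ∪
      Set.range (fun k => (f k).V k) : Set W), ∃ (w : Fin 3) (a : ℕ), y = pt (f a) w a := by
    rintro y ((⟨a, rfl⟩ | ⟨a, rfl⟩) | ⟨a, rfl⟩)
    · exact ⟨0, a, by simp [pt]⟩
    · exact ⟨1, a, by simp [pt]⟩
    · exact ⟨2, a, by simp [pt]⟩
  -- the invariants at time `max k l`
  have hI : ∀ k l, Full Good (max k l) (f (max k l)) := fun k l => hf _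
  have hdm : ∀ k l, dist ((f k).m k) ((f l).m l) =
      max (dist ((f k).m k).1 ((f l).m l).1)
        (dist (((f k).m k).2 : E) (((f l).m l).2 : E)) := by
    intro k l
    rw [Prod.dist_eq, Subtype.dist_eq]
  have hbig : ∀ k l, dist ((f k).m k) ((f l).m l) ≤ dist ((f k).z k) ((f l).z l) := by
    intro k l
    refine le_of_forall_lt fun Lam hLam => ?_
    have h1 : k ≤ max k l := le_max_left _ _
    have h2 : l ≤ max k l := le_max_right _ _
    rw [← em k _ h1, ← em l _ h2] at hLam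
    obtain ⟨Lam', hl1, hl2⟩ := exists_between hLam
    obtain ⟨s, hs, hsl⟩ := hS.big _ _ _ (hI k l).good k h1 l h2 Lam' hl2
    have h3 : |s k - s l| ≤ dist ((f (max k l)).z k) ((f (max k l)).z l) :=
      SS_abs (z := (f (max k l)).z) hs h1 h2
    rw [ez k _ h1, ez l _ h2] at h3
    have h4 := le_abs_self (s k - s l)
    linarith
  refine ⟨{
    U' := fun k => (f k).U' k
    U := fun k => ((f k).m k).1
    V := fun k => (f k).V k
    e' := fun k => ((f k).e' k : E)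
    e := fun k => (((f k).m k).2 : E)
    z := fun k => (f k).z k
    D := fun k l => (f (max k l)).D k l
    h1 := ?_, h1' := ?_, h2 := ?_, h3 := ?_, h3' := ?_, dA := ?_, dB := ?_, h00 := ?_ }⟩
  · intro k l
    have h1 : k ≤ max k l := le_max_left _ _
    have h2 : l ≤ max k l := le_max_right _ _
    have a1 := (hI k l).inv.a1 k h1 l h2
    have a2 := (hI k l).inv.a2 k h1 l h2
    have a3 := (hI k l).inv.a3 k h1 l h2
    rw [eU' k _ h1, eU' l _ h2] at a1
    rw [ee' k _ h1, ee' l _ h2] at a2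
    rw [ez k _ h1, ez l _ h2] at a3
    exact ⟨a1, a2, a3⟩
  · intro k l
    have h1 : k ≤ max k l := le_max_left _ _
    have h2 : l ≤ max k l := le_max_right _ _
    have a4 := (hI k l).inv.a4 k h1 l h2
    rw [eU' k _ h1, eU' l _ h2, ee' k _ h1, ee' l _ h2, ez k _ h1, ez l _ h2] at a4
    exact a4
  · intro k l
    have := hbig k l
    rw [hdm] at this
    exact ⟨le_trans (le_max_left _ _) this, le_trans (le_max_right _ _) this⟩
  · intro k l
    have h1 : k ≤ max k l := le_max_left _ _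
    have h2 : l ≤ max k l := le_max_right _ _
    have c1 := (hI k l).inv.c1 k h1 l h2
    have c2 := (hI k l).inv.c2 k h1 l h2
    rw [eV k _ h1, eV l _ h2] at c1
    rw [em k _ h1, em l _ h2, hdm] at c2
    have m1 := le_max_left (dist ((f k).m k).1 ((f l).m l).1)
      (dist (((f k).m k).2 : E) (((f l).m l).2 : E))
    have m2 := le_max_right (dist ((f k).m k).1 ((f l).m l).1)
      (dist (((f k).m k).2 : E) (((f l).m l).2 : E))
    exact ⟨c1, le_trans (mul_le_mul_of_nonneg_left m1 (by norm_num)) c2,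
      le_trans (mul_le_mul_of_nonneg_left m2 (by norm_num)) c2⟩
  · intro k l
    have h1 : k ≤ max k l := le_max_left _ _
    have h2 : l ≤ max k l := le_max_right _ _
    have c3 := (hI k l).inv.c3 k h1 l h2
    rw [eV k _ h1, eV l _ h2, em k _ h1, em l _ h2, hdm] at c3
    exact c3
  · intro y hy i j
    obtain ⟨w, a, rfl⟩ := hused y hy
    obtain ⟨n, hn, hs⟩ := hserve (true, (w, a), (0, 0), i, j) a
    obtain ⟨s1, s2, s3⟩ := hs.1 rfl
    simp only [min_eq_left hn] at s1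
    refine ⟨n + 1, ?_, ?_, s3⟩
    · rw [s1, hpt w a n hn]
    · rw [s2]
  · intro y hy y' hy' i
    obtain ⟨w, a, rfl⟩ := hused y hy
    obtain ⟨w', a', rfl⟩ := hused y' hy'
    obtain ⟨n, hn, hs⟩ := hserve (false, (w, a), (w', a'), i, 0) (max a a')
    obtain ⟨s1, s2⟩ := hs.2 rfl
    have ha : a ≤ n := le_trans (le_max_left _ _) hn
    have ha' : a' ≤ n := le_trans (le_max_right _ _) hn
    simp only [min_eq_left ha, min_eq_left ha'] at s1 s2
    refine ⟨n + 1, ?_, ?_, ?_⟩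
    · rw [s1, ← hpt w a n ha]
    · rw [s1]
    · rw [s2, hpt w' a' n ha']
  · refine ⟨?_, ?_, ?_, ?_, ?_⟩
    · change (f 0).U' 0 = ((f 0).m 0).1
      rw [i1, i2]
    · change ((f 0).m 0).1 = (f 0).V 0
      rw [i2, i3]
    · change ((f 0).e' 0 : E) = 0
      rw [i4]
    · change (((f 0).m 0).2 : E) = 0
      rw [i2]
    · exact i5

/-- **T6_run**, literal statement of Spec.lean with the statement of T5 as a hypothesis. -/
theorem T6_run_of
    (T5 : ∀ {X : Type} [PseudoMetricSpace X], BallProp X →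
      ∃ Good : ℕ → Geo → (ℕ → X) → Prop,
      (∀ n g g' m m', Agree n g g' → (∀ i ≤ n, m i = m' i) → Good n g m → Good n g' m') ∧
      (∀ g m, Valid 0 g → Good 0 g m) ∧
      (∀ n g m, Good n g m → ∀ k ≤ n, ∀ l ≤ n, dist (m k) (m l) ≤ g.D k l / 10^15) ∧
      (∀ n g m, Good n g m → ∀ k ≤ n, ∀ l ≤ n, ∀ Lam < dist (m k) (m l),
        ∃ s ∈ g.S n, Lam ≤ s k - s l) ∧
      (∀ n g m, Valid (n+1) g → g.isA (n+1) → Good n g m →
        ∃ x, Good (n+1) g (Function.update m (n+1) x)) ∧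
      (∀ n g m, Valid (n+1) g → ¬ g.isA (n+1) → Good n g m →
        (∀ l ≤ n, dist (m (n+1)) (m l) ≤ g.D (n+1) l / 10^15) → Good (n+1) g m))
    (W : Type) [MetricSpace W] [Nonempty W] (hW : KatProp W)
    (E : Type) [NormedAddCommGroup E] [NormedSpace ℝ E] (Ed : Set E) (hE : BallPropOn Ed)
    (h0 : (0 : E) ∈ Ed) (ec : ℕ → E) (hec : ∀ i, ec i ∈ Ed)
    (zc : ℕ → Z) (hzc : ∀ i, FinDep (zc i)) : Nonempty (Play W E ec zc) := by
  obtain ⟨Good, g1, g2, g3, g4, g5, g6⟩ := T5 (X := W × Ed)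
    (ball_prod (ball_of_kat hW) (ball_sub hE))
  exact T6_of (Good := Good) ⟨g1, g2, g3, g4, g5, g6⟩ hW hE h0 ec hec zc hzc

end P124H28
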