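import Vale.Agent.P124.H28.Basic
import Vale.Agent.P124.H186.Play
import Vale.Agent.P124.H186.T3

/-!
P124, piece T6 (second seat, helper28): states of the game, invariant, one-step extension.
-/

namespace P124H28

open P124H186

/-- a state of the game (fields are junk beyond the current time) -/
structure St (W : Type) (E : Type) (Ed : Set E) where
  m : ℕ → W × Ed
  U' : ℕ → W
  e' : ℕ → Ed
  V : ℕ → W
  z : ℕ → Z
  D : ℕ → ℕ → ℝ
  isA : ℕ → Prop
  P : ℕ → ℕ → ℝ

variable {W : Type} [MetricSpace W] {E : Type} [NormedAddCommGroup E] {Ed : Set E}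

/-- the geometric part -/
def St.g (s : St W E Ed) : Geo := geo s.D s.isA s.P s.z

/-- agreement up to time `n` -/
structure Agr (n : ℕ) (s s' : St W E Ed) : Prop where
  m : ∀ i ≤ n, s'.m i = s.m i
  U' : ∀ i ≤ n, s'.U' i = s.U' i
  e' : ∀ i ≤ n, s'.e' i = s.e' i
  V : ∀ i ≤ n, s'.V i = s.V i
  z : ∀ i ≤ n, s'.z i = s.z i
  D : ∀ i ≤ n, ∀ j ≤ n, s'.D i j = s.D i j
  isA : ∀ i ≤ n, s'.isA i ↔ s.isA i
  P : ∀ i ≤ n, s'.P i = s.P i

theorem Agr.refl (n : ℕ) (s : St W E Ed) : Agr n s s :=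
  ⟨fun _ _ => rfl, fun _ _ => rfl, fun _ _ => rfl, fun _ _ => rfl, fun _ _ => rfl,
    fun _ _ _ _ => rfl, fun _ _ => Iff.rfl, fun _ _ => rfl⟩

theorem Agr.trans {n k : ℕ} {s s' s'' : St W E Ed} (h : Agr n s s') (h' : Agr k s' s'')
    (hk : n ≤ k) : Agr n s s'' where
  m i hi := (h'.m i (hi.trans hk)).trans (h.m i hi)
  U' i hi := (h'.U' i (hi.trans hk)).trans (h.U' i hi)
  e' i hi := (h'.e' i (hi.trans hk)).trans (h.e' i hi)
  V i hi := (h'.V i (hi.trans hk)).trans (h.V i hi)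
  z i hi := (h'.z i (hi.trans hk)).trans (h.z i hi)
  D i hi j hj := (h'.D i (hi.trans hk) j (hj.trans hk)).trans (h.D i hi j hj)
  isA i hi := (h'.isA i (hi.trans hk)).trans (h.isA i hi)
  P i hi := (h'.P i (hi.trans hk)).trans (h.P i hi)

theorem Agr.agree {n : ℕ} {s s' : St W E Ed} (h : Agr n s s') : Agree n s.g s'.g where
  D i hi j hj := (h.D i hi j hj).symm
  isA i hi := (h.isA i hi).symm
  P i hi j _ := by
    change s.P i j = s'.P i j
    rw [h.P i hi]
  S i hi := (SS_congr (fun j hj => (h.z j (hj.trans hi)))).symm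

/-- the two kinds of moves, geometric conditions -/
def OkA (s : St W E Ed) (t : ℕ) : Prop :=
  (∀ l ≤ t, dist (s.z (t + 1)) (s.z l) ≤ s.P (t + 1) l / 10 ^ 15) ∧
  (∀ k ≤ t, ∀ l ≤ t, s.D (t + 1) k ≤ s.P (t + 1) l + s.D l k) ∧
  (∀ k ≤ t, ∃ l ≤ t, s.D (t + 1) k = s.P (t + 1) l + s.D l k)

def OkB (s : St W E Ed) (t : ℕ) : Prop :=
  ∀ (q : Q) (x : ℝ), (∀ k ≤ t, |x - s.z k q| ≤ s.D (t + 1) k) →
    ∃ q' : Q, (∀ k ≤ t, s.z k q' = s.z k q) ∧ s.z (t + 1) q' = x

/-- geometric invariant -/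
structure Inv (n : ℕ) (s : St W E Ed) : Prop where
  D_self : ∀ i ≤ n, s.D i i = 0
  D_symm : ∀ i j, s.D i j = s.D j i
  D_tri : ∀ i ≤ n, ∀ j ≤ n, ∀ k ≤ n, s.D i k ≤ s.D i j + s.D j k
  okA : ∀ t < n, s.isA (t + 1) → OkA s t
  okB : ∀ t < n, ¬ s.isA (t + 1) → OkB s t
  fin : ∀ i ≤ n, FinDep (s.z i)
  a1 : ∀ i ≤ n, ∀ j ≤ n, dist (s.U' i) (s.U' j) ≤ s.D i j
  a2 : ∀ i ≤ n, ∀ j ≤ n, dist (s.e' i) (s.e' j) ≤ s.D i j
  a3 : ∀ i ≤ n, ∀ j ≤ n, dist (s.z i) (s.z j) ≤ s.D i j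
  a4 : ∀ i ≤ n, ∀ j ≤ n, s.D i j ≤ (2 + 10 ^ 15) * dist (s.U' i) (s.U' j)
    + dist (s.e' i) (s.e' j) + 10 ^ 15 * dist (s.z i) (s.z j)
  c1 : ∀ i ≤ n, ∀ j ≤ n, dist (s.V i) (s.V j) ≤ s.D i j
  c2 : ∀ i ≤ n, ∀ j ≤ n, 10 ^ 15 * dist (s.m i) (s.m j) ≤ s.D i j
  c3 : ∀ i ≤ n, ∀ j ≤ n, s.D i j ≤ 2 * dist (s.V i) (s.V j) + 10 ^ 15 * dist (s.m i) (s.m j)

theorem Inv.valid {n : ℕ} {s : St W E Ed} (h : Inv n s) : Valid n s.g where
  D_self := h.D_self
  D_symm i _ j _ := h.D_symm i j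
  D_tri := h.D_tri
  S_ne := ⟨fun i => s.z i (fun _ => 0), fun _ => 0, 1, Or.inl rfl, fun i _ => by simp⟩
  S_congr t _ s₁ s₂ he := by
    rintro ⟨q, c, hc, hs⟩
    exact ⟨q, c, hc, fun i hi => by rw [← he i hi, hs i hi]⟩
  S_neg t _ s₁ := by
    rintro ⟨q, c, hc, hs⟩
    refine ⟨q, -c, ?_, fun i hi => ?_⟩
    · rcases hc with rfl | rfl
      · exact Or.inr rfl
      · exact Or.inl (by norm_num)
    · have h1 : s₁ i = c * s.z i q := hs i hi
      change -(s₁ i) = -c * s.z i q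
      rw [h1]; ring
  S_lip t ht s₁ hs i hi j hj :=
    le_trans (le_trans (le_abs_self _) (SS_abs hs hi hj)) (h.a3 i (hi.trans ht) j (hj.trans ht))
  S_res t _ s₁ := by
    rintro ⟨q, c, hc, hs⟩
    exact ⟨q, c, hc, fun i hi => hs i (by omega)⟩
  A_ext t ht hA s₁ := by
    rintro ⟨q, c, hc, hs⟩
    refine ⟨fun i => if i ≤ t then s₁ i else c * s.z i q, ⟨q, c, hc, fun i _ => ?_⟩, fun i hi => by
      simp [hi]⟩
    by_cases hi : i ≤ t
    · simp only [hi, if_true]; exact hs i hi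
    · simp only [hi, if_false]
  A_flat t ht hA s₁ hs l hl :=
    le_trans (SS_abs hs (le_refl _) (by omega)) ((h.okA t ht hA).1 l hl)
  A_le t ht hA k hk l hl := (h.okA t ht hA).2.1 k hk l hl
  A_eq t ht hA k hk := (h.okA t ht hA).2.2 k hk
  B_ext t ht hB s₁ := by
    rintro ⟨q, c, hc, hs⟩ hl
    have hl' : ∀ l ≤ t, |s₁ (t + 1) - s₁ l| ≤ s.D (t + 1) l := hl
    have hc2 : c * c = 1 := by rcases hc with rfl | rfl <;> norm_num
    have hca : |c| = 1 := by rcases hc with rfl | rfl <;> norm_num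
    obtain ⟨q', hq', hx⟩ := h.okB t ht hB q (c * s₁ (t + 1)) (fun k hk => by
      have h1 := hl' k hk
      have h2 : s₁ k = c * s.z k q := hs k hk
      have h3 : c * s₁ (t + 1) - s.z k q = c * (s₁ (t + 1) - s₁ k) := by
        rw [h2]
        have : c * (c * s.z k q) = s.z k q := by rw [← mul_assoc, hc2, one_mul]
        rw [mul_sub, this]
      rw [h3, abs_mul, hca, one_mul]
      exact h1)
    refine ⟨q', c, hc, fun i hi => ?_⟩
    rcases Nat.lt_or_ge t i with h1 | h1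
    · have : i = t + 1 := by omega
      subst this
      change s₁ (t + 1) = c * s.z (t + 1) q'
      rw [hx, ← mul_assoc, hc2, one_mul]
    · change s₁ i = c * s.z i q'
      rw [hq' i h1]
      exact hs i h1

theorem pairs {n : ℕ} {R : ℕ → ℕ → Prop} (hs : ∀ i j, R i j → R j i)
    (h0 : ∀ i ≤ n, ∀ j ≤ n, R i j) (h1 : ∀ j ≤ n, R (n + 1) j) (h2 : R (n + 1) (n + 1)) :
    ∀ i ≤ n + 1, ∀ j ≤ n + 1, R i j := by
  intro i hi j hj
  rcases Nat.lt_or_ge n i with h | h
  · have : i = n + 1 := by omega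
    subst this
    rcases Nat.lt_or_ge n j with h' | h'
    · have : j = n + 1 := by omega
      subst this
      exact h2
    · exact h1 j h'
  · rcases Nat.lt_or_ge n j with h' | h'
    · have : j = n + 1 := by omega
      subst this
      exact hs _ _ (h1 i h)
    · exact h0 i h j h'

/-- extension of the invariant by one point -/
theorem Inv.succ {n : ℕ} {s s' : St W E Ed} (h : Inv n s) (ha : Agr n s s')
    (hsym : ∀ i j, s'.D i j = s'.D j i) (h00 : s'.D (n + 1) (n + 1) = 0)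
    (ht1 : ∀ k ≤ n, ∀ l ≤ n, s'.D (n + 1) k ≤ s'.D (n + 1) l + s.D l k)
    (ht2 : ∀ k ≤ n, ∀ l ≤ n, s.D k l ≤ s'.D (n + 1) k + s'.D (n + 1) l)
    (hok : (s'.isA (n + 1) ∧ OkA s' n) ∨ (¬ s'.isA (n + 1) ∧ OkB s' n))
    (hfin : FinDep (s'.z (n + 1)))
    (a1 : ∀ j ≤ n, dist (s'.U' (n + 1)) (s.U' j) ≤ s'.D (n + 1) j)
    (a2 : ∀ j ≤ n, dist (s'.e' (n + 1)) (s.e' j) ≤ s'.D (n + 1) j)
    (a3 : ∀ j ≤ n, dist (s'.z (n + 1)) (s.z j) ≤ s'.D (n + 1) j)
    (a4 : ∀ j ≤ n, s'.D (n + 1) j ≤ (2 + 10 ^ 15) * dist (s'.U' (n + 1)) (s.U' j)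
      + dist (s'.e' (n + 1)) (s.e' j) + 10 ^ 15 * dist (s'.z (n + 1)) (s.z j))
    (c1 : ∀ j ≤ n, dist (s'.V (n + 1)) (s.V j) ≤ s'.D (n + 1) j)
    (c2 : ∀ j ≤ n, 10 ^ 15 * dist (s'.m (n + 1)) (s.m j) ≤ s'.D (n + 1) j)
    (c3 : ∀ j ≤ n, s'.D (n + 1) j ≤ 2 * dist (s'.V (n + 1)) (s.V j)
      + 10 ^ 15 * dist (s'.m (n + 1)) (s.m j)) :
    Inv (n + 1) s' := by
  have hnn : ∀ j ≤ n, 0 ≤ s'.D (n + 1) j := fun j hj => le_trans dist_nonneg (a3 j hj)
  refine ⟨?_, hsym, ?_, ?_, ?_, ?_, ?_, ?_, ?_, ?_, ?_, ?_, ?_⟩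
  · intro i hi
    rcases Nat.lt_or_ge n i with h' | h'
    · have : i = n + 1 := by omega
      subst this; exact h00
    · rw [ha.D i h' i h']; exact h.D_self i h'
  · intro i hi j hj k hk
    rcases Nat.lt_or_ge n i with hi' | hi' <;> rcases Nat.lt_or_ge n j with hj' | hj' <;>
      rcases Nat.lt_or_ge n k with hk' | hk'
    · have e1 : i = n + 1 := by omega
      have e2 : j = n + 1 := by omega
      have e3 : k = n + 1 := by omega
      subst e1; subst e2; subst e3; linarith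
    · have e1 : i = n + 1 := by omega
      have e2 : j = n + 1 := by omega
      subst e1; subst e2; linarith
    · have e1 : i = n + 1 := by omega
      have e3 : k = n + 1 := by omega
      subst e1; subst e3
      have := hnn j hj'
      have h2 := hsym (n + 1) j
      linarith
    · have e1 : i = n + 1 := by omega
      subst e1
      rw [ha.D j hj' k hk']
      exact ht1 k hk' j hj'
    · have e2 : j = n + 1 := by omega
      have e3 : k = n + 1 := by omega
      subst e2; subst e3; linarith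
    · have e2 : j = n + 1 := by omega
      subst e2
      rw [ha.D i hi' k hk', hsym i (n + 1)]
      exact ht2 i hi' k hk'
    · have e3 : k = n + 1 := by omega
      subst e3
      rw [ha.D i hi' j hj', hsym i (n + 1), hsym j (n + 1)]
      have := ht1 i hi' j hj'
      rw [h.D_symm j i] at this
      linarith
    · rw [ha.D i hi' k hk', ha.D i hi' j hj', ha.D j hj' k hk']
      exact h.D_tri i hi' j hj' k hk'
  · intro t ht hA
    rcases Nat.lt_or_ge t n with h' | h'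
    · have h1 := h.okA t h' ((ha.isA (t + 1) (by omega)).1 hA)
      refine ⟨fun l hl => ?_, fun k hk l hl => ?_, fun k hk => ?_⟩
      · rw [ha.z (t + 1) (by omega), ha.z l (by omega), ha.P (t + 1) (by omega)]
        exact h1.1 l hl
      · rw [ha.D (t + 1) (by omega) k (by omega), ha.P (t + 1) (by omega),
          ha.D l (by omega) k (by omega)]
        exact h1.2.1 k hk l hl
      · obtain ⟨l, hl, e⟩ := h1.2.2 k hk
        refine ⟨l, hl, ?_⟩
        rw [ha.D (t + 1) (by omega) k (by omega), ha.P (t + 1) (by omega),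
          ha.D l (by omega) k (by omega)]
        exact e
    · have : t = n := by omega
      subst this
      rcases hok with h1 | h1
      · exact h1.2
      · exact absurd hA h1.1
  · intro t ht hB
    rcases Nat.lt_or_ge t n with h' | h'
    · have h1 := h.okB t h' (fun hA => hB ((ha.isA (t + 1) (by omega)).2 hA))
      intro q x hx
      obtain ⟨q', hq', hx'⟩ := h1 q x (fun k hk => by
        have := hx k hk
        rwa [ha.z k (by omega), ha.D (t + 1) (by omega) k (by omega)] at this)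
      refine ⟨q', fun k hk => ?_, ?_⟩
      · rw [ha.z k (by omega)]; exact hq' k hk
      · rw [ha.z (t + 1) (by omega)]; exact hx'
    · have : t = n := by omega
      subst this
      rcases hok with h1 | h1
      · exact absurd h1.1 hB
      · exact h1.2
  · intro i hi
    rcases Nat.lt_or_ge n i with h' | h'
    · have : i = n + 1 := by omega
      subst this; exact hfin
    · rw [ha.z i h']; exact h.fin i h'
  · refine pairs (R := fun i j => dist (s'.U' i) (s'.U' j) ≤ s'.D i j) ?_ ?_ ?_ ?_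
    · intro i j hij; rw [dist_comm, hsym]; exact hij
    · intro i hi j hj
      rw [ha.U' i hi, ha.U' j hj, ha.D i hi j hj]; exact h.a1 i hi j hj
    · intro j hj; rw [ha.U' j hj]; exact a1 j hj
    · rw [dist_self, h00]
  · refine pairs (R := fun i j => dist (s'.e' i) (s'.e' j) ≤ s'.D i j) ?_ ?_ ?_ ?_
    · intro i j hij; rw [dist_comm, hsym]; exact hij
    · intro i hi j hj
      rw [ha.e' i hi, ha.e' j hj, ha.D i hi j hj]; exact h.a2 i hi j hj
    · intro j hj; rw [ha.e' j hj]; exact a2 j hj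
    · rw [dist_self, h00]
  · refine pairs (R := fun i j => dist (s'.z i) (s'.z j) ≤ s'.D i j) ?_ ?_ ?_ ?_
    · intro i j hij; rw [dist_comm, hsym]; exact hij
    · intro i hi j hj
      rw [ha.z i hi, ha.z j hj, ha.D i hi j hj]; exact h.a3 i hi j hj
    · intro j hj; rw [ha.z j hj]; exact a3 j hj
    · rw [dist_self, h00]
  · refine pairs (R := fun i j => s'.D i j ≤ (2 + 10 ^ 15) * dist (s'.U' i) (s'.U' j)
      + dist (s'.e' i) (s'.e' j) + 10 ^ 15 * dist (s'.z i) (s'.z j)) ?_ ?_ ?_ ?_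
    · intro i j hij
      rw [hsym, dist_comm (s'.U' j), dist_comm (s'.e' j), dist_comm (s'.z j)]; exact hij
    · intro i hi j hj
      rw [ha.z i hi, ha.z j hj, ha.U' i hi, ha.U' j hj, ha.e' i hi, ha.e' j hj, ha.D i hi j hj]
      exact h.a4 i hi j hj
    · intro j hj
      rw [ha.z j hj, ha.U' j hj, ha.e' j hj]
      exact a4 j hj
    · rw [dist_self, dist_self, dist_self, h00]; norm_num
  · refine pairs (R := fun i j => dist (s'.V i) (s'.V j) ≤ s'.D i j) ?_ ?_ ?_ ?_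
    · intro i j hij; rw [dist_comm, hsym]; exact hij
    · intro i hi j hj
      rw [ha.V i hi, ha.V j hj, ha.D i hi j hj]; exact h.c1 i hi j hj
    · intro j hj; rw [ha.V j hj]; exact c1 j hj
    · rw [dist_self, h00]
  · refine pairs (R := fun i j => 10 ^ 15 * dist (s'.m i) (s'.m j) ≤ s'.D i j) ?_ ?_ ?_ ?_
    · intro i j hij; rw [dist_comm, hsym]; exact hij
    · intro i hi j hj
      rw [ha.m i hi, ha.m j hj, ha.D i hi j hj]; exact h.c2 i hi j hj
    · intro j hj; rw [ha.m j hj]; exact c2 j hj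
    · rw [dist_self, h00]; norm_num
  · refine pairs (R := fun i j => s'.D i j ≤ 2 * dist (s'.V i) (s'.V j)
      + 10 ^ 15 * dist (s'.m i) (s'.m j)) ?_ ?_ ?_ ?_
    · intro i j hij
      rw [hsym, dist_comm (s'.V j), dist_comm (s'.m j)]; exact hij
    · intro i hi j hj
      rw [ha.V i hi, ha.V j hj, ha.m i hi, ha.m j hj, ha.D i hi j hj]
      exact h.c3 i hi j hj
    · intro j hj
      rw [ha.V j hj, ha.m j hj]
      exact c3 j hj
    · rw [dist_self, dist_self, h00]; norm_num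

end P124H28
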