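import Vale.Agent.P124.H28.State

/-!
P124, piece T6 (second seat, helper28): the A-move and the B-move.
-/

namespace P124H28

open P124H186

variable {W : Type} [MetricSpace W] {E : Type} [NormedAddCommGroup E] {Ed : Set E}

/-- the one-point extension of a state -/
noncomputable def St.ext (s : St W E Ed) (N : ℕ) (x : W × Ed) (u' : W) (e' : Ed) (v : W) (z : Z)
    (d : ℕ → ℝ) (A : Prop) (p : ℕ → ℝ) : St W E Ed where
  m := Function.update s.m N x
  U' := Function.update s.U' N u'
  e' := Function.update s.e' N e'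
  V := Function.update s.V N v
  z := Function.update s.z N z
  D := extD N s.D d
  isA := Function.update s.isA N A
  P := Function.update s.P N p

theorem upd_old {α : Type*} (f : ℕ → α) {n i : ℕ} (x : α) (hi : i ≤ n) :
    Function.update f (n + 1) x i = f i :=
  Function.update_of_ne (by omega) _ _

theorem upd_new {α : Type*} (f : ℕ → α) {n : ℕ} (x : α) :
    Function.update f (n + 1) x (n + 1) = x := Function.update_self _ _ _

theorem Agr.ext (s : St W E Ed) (n : ℕ) (x : W × Ed) (u' : W) (e' : Ed) (v : W) (z : Z)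
    (d : ℕ → ℝ) (A : Prop) (p : ℕ → ℝ) : Agr n s (s.ext (n + 1) x u' e' v z d A p) where
  m i hi := upd_old _ _ hi
  U' i hi := upd_old _ _ hi
  e' i hi := upd_old _ _ hi
  V i hi := upd_old _ _ hi
  z i hi := upd_old _ _ hi
  D i hi j hj := extD_old (by omega) (by omega)
  isA i hi := by
    change Function.update s.isA (n + 1) A i ↔ s.isA i
    rw [upd_old _ _ hi]
  P i hi := upd_old _ _ hi

theorem extD_symm {N : ℕ} {D : ℕ → ℕ → ℝ} (hD : ∀ i j, D i j = D j i) (d : ℕ → ℝ) (i j : ℕ) :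
    extD N D d i j = extD N D d j i := by
  unfold extD
  by_cases hi : i = N <;> by_cases hj : j = N <;> simp [hi, hj, hD i j]

/-- what T5 gives (for one label space) -/
structure Strat (X : Type) [PseudoMetricSpace X] (Good : ℕ → Geo → (ℕ → X) → Prop) : Prop where
  congr : ∀ n g g' m m', Agree n g g' → (∀ i ≤ n, m i = m' i) → Good n g m → Good n g' m'
  zero : ∀ g m, Valid 0 g → Good 0 g m
  lip : ∀ n g m, Good n g m → ∀ k ≤ n, ∀ l ≤ n, dist (m k) (m l) ≤ g.D k l / 10^15
  big : ∀ n g m, Good n g m → ∀ k ≤ n, ∀ l ≤ n, ∀ Lam < dist (m k) (m l),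
        ∃ s ∈ g.S n, Lam ≤ s k - s l
  stepA : ∀ n g m, Valid (n+1) g → g.isA (n+1) → Good n g m →
        ∃ x, Good (n+1) g (Function.update m (n+1) x)
  stepB : ∀ n g m, Valid (n+1) g → ¬ g.isA (n+1) → Good n g m →
        (∀ l ≤ n, dist (m (n+1)) (m l) ≤ g.D (n+1) l / 10^15) → Good (n+1) g m

variable {Good : ℕ → Geo → (ℕ → W × Ed) → Prop}

/-- full invariant -/
structure Full (Good : ℕ → Geo → (ℕ → W × Ed) → Prop) (n : ℕ) (s : St W E Ed) : Prop where
  inv : Inv n s
  good : Good n s.g s.m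

theorem Full.stepA (hS : Strat (W × Ed) Good) (hX : BallProp (W × Ed)) (hW : KatProp W) {n : ℕ}
    {s : St W E Ed} (h : Full Good n s) (u' : W) (e' : Ed) (z : Z) (hz : FinDep z) :
    ∃ s', Full Good (n + 1) s' ∧ Agr n s s' ∧ s'.U' (n + 1) = u' ∧ s'.e' (n + 1) = e' ∧
      s'.z (n + 1) = z := by
  have hi := h.inv
  -- attachment lengths and distances
  set p : ℕ → ℝ := fun l => (2 + 10 ^ 15) * dist u' (s.U' l) + dist e' (s.e' l)
    + 10 ^ 15 * dist z (s.z l) with hp
  set d : ℕ → ℝ := fun k => mn n (fun l => p l + s.D l k) with hd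
  have hdle : ∀ k, ∀ l ≤ n, d k ≤ p l + s.D l k := fun k l hl => mn_le _ hl
  have hdeq : ∀ k, ∃ l ≤ n, d k = p l + s.D l k := fun k => mn_mem _ _
  have hpp : ∀ k ≤ n, ∀ l ≤ n, s.D k l ≤ p k + p l := by
    intro k hk l hl
    have h1 := hi.a4 k hk l hl
    have h2 := dist_triangle_left (s.U' k) (s.U' l) u'
    have h3 := dist_triangle_left (s.e' k) (s.e' l) e'
    have h4 := dist_triangle_left (s.z k) (s.z l) z
    have h5 := mul_le_mul_of_nonneg_left h2 (by norm_num : (0:ℝ) ≤ 2 + 10 ^ 15)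
    have h6 := mul_le_mul_of_nonneg_left h4 (by norm_num : (0:ℝ) ≤ 10 ^ 15)
    simp only [hp]
    linarith
  have ht1 : ∀ k ≤ n, ∀ l ≤ n, d k ≤ d l + s.D l k := by
    intro k hk l hl
    obtain ⟨j, hj, e⟩ := hdeq l
    have h1 := hdle k j hj
    have h2 := hi.D_tri j hj l hl k hk
    linarith
  have ht2 : ∀ k ≤ n, ∀ l ≤ n, s.D k l ≤ d k + d l := by
    intro k hk l hl
    obtain ⟨j, hj, e⟩ := hdeq k
    obtain ⟨j', hj', e'⟩ := hdeq l
    have h1 := hpp j hj j' hj'
    have h2 := hi.D_tri k hk j hj l hl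
    have h3 := hi.D_tri j hj j' hj' l hl
    have h4 := hi.D_symm k j
    linarith
  have hp1 : ∀ l, dist u' (s.U' l) ≤ p l := fun l => by
    have := dist_nonneg (x := u') (y := s.U' l)
    have := dist_nonneg (x := e') (y := s.e' l)
    have := dist_nonneg (x := z) (y := s.z l)
    simp only [hp]; nlinarith
  have hp2 : ∀ l, dist e' (s.e' l) ≤ p l := fun l => by
    have := dist_nonneg (x := u') (y := s.U' l)
    have := dist_nonneg (x := e') (y := s.e' l)
    have := dist_nonneg (x := z) (y := s.z l)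
    simp only [hp]; nlinarith
  have hp3 : ∀ l, 10 ^ 15 * dist z (s.z l) ≤ p l := fun l => by
    have := dist_nonneg (x := u') (y := s.U' l)
    have := dist_nonneg (x := e') (y := s.e' l)
    have := dist_nonneg (x := z) (y := s.z l)
    simp only [hp]; nlinarith
  have b1 : ∀ j ≤ n, dist u' (s.U' j) ≤ d j := by
    intro j hj
    obtain ⟨l, hl, e⟩ := hdeq j
    have h1 := dist_triangle u' (s.U' l) (s.U' j)
    have h2 := hi.a1 l hl j hj
    have h3 := hp1 l
    linarith
  have b2 : ∀ j ≤ n, dist e' (s.e' j) ≤ d j := by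
    intro j hj
    obtain ⟨l, hl, e⟩ := hdeq j
    have h1 := dist_triangle e' (s.e' l) (s.e' j)
    have h2 := hi.a2 l hl j hj
    have h3 := hp2 l
    linarith
  have b3 : ∀ j ≤ n, dist z (s.z j) ≤ d j := by
    intro j hj
    obtain ⟨l, hl, e⟩ := hdeq j
    have h1 := dist_triangle z (s.z l) (s.z j)
    have h2 := hi.a3 l hl j hj
    have h3 := hp3 l
    have h4 := dist_nonneg (x := z) (y := s.z l)
    linarith
  have b4 : ∀ j ≤ n, d j ≤ p j := by
    intro j hj
    have h1 := hdle j j hj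
    have h2 := hi.D_self j hj
    linarith
  -- the new `V`
  obtain ⟨v, hv1, hv2⟩ := kat_min hW n s.V d (fun i hi' j hj => by
    have h1 := hi.c1 i hi' j hj
    have h2 := ht2 i hi' j hj
    linarith)
  -- the label: first with a junk label, then with the label given by the strategy
  set s₀ : St W E Ed := s.ext (n + 1) (u', e') u' e' v z d True p with hs₀
  have hagr₀ : Agr n s s₀ := Agr.ext _ _ _ _ _ _ _ _ _ _
  have hD1 : ∀ x : W × Ed, ∀ j ≤ n,
      (s.ext (n + 1) x u' e' v z d True p).D (n + 1) j = d j := fun x j hj =>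
    extD_new (by omega)
  have hok : ∀ x : W × Ed, OkA (s.ext (n + 1) x u' e' v z d True p) n := by
    intro x
    have hA := Agr.ext s n x u' e' v z d True p
    refine ⟨fun l hl => ?_, fun k hk l hl => ?_, fun k hk => ?_⟩
    · rw [hA.z l hl]
      change dist (Function.update s.z (n + 1) z (n + 1)) (s.z l) ≤
        Function.update s.P (n + 1) p (n + 1) l / 10 ^ 15
      rw [upd_new, upd_new]
      have := hp3 l
      rw [le_div_iff₀ (by norm_num)]
      linarith
    · rw [hD1 x k hk, hA.D l hl k hk]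
      change d k ≤ Function.update s.P (n + 1) p (n + 1) l + s.D l k
      rw [upd_new]
      exact hdle k l hl
    · obtain ⟨l, hl, e⟩ := hdeq k
      refine ⟨l, hl, ?_⟩
      rw [hD1 x k hk, hA.D l hl k hk]
      change d k = Function.update s.P (n + 1) p (n + 1) l + s.D l k
      rw [upd_new]
      exact e
  -- the geometry does not depend on the label: build the invariant for every admissible label
  have key : ∀ x : W × Ed, (∀ j ≤ n, 10 ^ 15 * dist x (s.m j) ≤ d j) →
      Inv (n + 1) (s.ext (n + 1) x u' e' v z d True p) := by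
    intro x hx
    have hA := Agr.ext s n x u' e' v z d True p
    have n1 : (s.ext (n + 1) x u' e' v z d True p).U' (n + 1) = u' := upd_new _ _
    have n2 : (s.ext (n + 1) x u' e' v z d True p).e' (n + 1) = e' := upd_new _ _
    have n3 : (s.ext (n + 1) x u' e' v z d True p).z (n + 1) = z := upd_new _ _
    have n4 : (s.ext (n + 1) x u' e' v z d True p).V (n + 1) = v := upd_new _ _
    have n5 : (s.ext (n + 1) x u' e' v z d True p).m (n + 1) = x := upd_new _ _
    refine hi.succ hA (fun i j => extD_symm hi.D_symm d i j) extD_self ?_ ?_ (Or.inl ⟨?_, hok x⟩)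
      ?_ ?_ ?_ ?_ ?_ ?_ ?_ ?_
    · intro k hk l hl; rw [hD1 x k hk, hD1 x l hl]; exact ht1 k hk l hl
    · intro k hk l hl; rw [hD1 x k hk, hD1 x l hl]; exact ht2 k hk l hl
    · change Function.update s.isA (n + 1) True (n + 1)
      rw [upd_new]; trivial
    · rw [n3]; exact hz
    · intro j hj; rw [hD1 x j hj, n1]; exact b1 j hj
    · intro j hj; rw [hD1 x j hj, n2]; exact b2 j hj
    · intro j hj; rw [hD1 x j hj, n3]; exact b3 j hj
    · intro j hj; rw [hD1 x j hj, n1, n2, n3]; exact b4 j hj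
    · intro j hj; rw [hD1 x j hj, n4]; exact hv1 j hj
    · intro j hj; rw [hD1 x j hj, n5]; exact hx j hj
    · intro j hj
      rw [hD1 x j hj, n4, n5]
      obtain ⟨l, hl, e⟩ := hv2 j hj
      rw [e]
      have h1 := hi.c3 l hl j hj
      have h2 := dist_triangle_left (s.m l) (s.m j) x
      have h3 := hx l hl
      have h4 := ht1 j hj l hl
      have h5 := mul_le_mul_of_nonneg_left h2 (by norm_num : (0:ℝ) ≤ 10 ^ 15)
      linarith
  -- validity of the geometry (independent of the label)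
  obtain ⟨x₁, hx₁⟩ := hX n s.m (fun j => d j / 10 ^ 15) (fun i hi' j hj => by
    have h1 := hi.c2 i hi' j hj
    have h2 := ht2 i hi' j hj
    have h3 : d i / 10 ^ 15 + d j / 10 ^ 15 = (d i + d j) / 10 ^ 15 := by ring
    rw [h3, le_div_iff₀ (by norm_num)]
    linarith)
  have hval : Valid (n + 1) (s.ext (n + 1) x₁ u' e' v z d True p).g :=
    (key x₁ (fun j hj => by
      have h1 := hx₁ j hj
      rw [le_div_iff₀ (by norm_num)] at h1
      linarith)).valid
  set G := (s.ext (n + 1) x₁ u' e' v z d True p).g with hG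
  have hGx : ∀ x, (s.ext (n + 1) x u' e' v z d True p).g = G := fun x => rfl
  have hgood : Good n G s.m :=
    hS.congr n s.g G s.m s.m (Agr.ext s n x₁ u' e' v z d True p).agree (fun _ _ => rfl) h.good
  have hisA : G.isA (n + 1) := by
    change Function.update s.isA (n + 1) True (n + 1)
    rw [upd_new]; trivial
  obtain ⟨x, hx⟩ := hS.stepA n G s.m hval hisA hgood
  have hlab : ∀ j ≤ n, 10 ^ 15 * dist x (s.m j) ≤ d j := by
    intro j hj
    have h1 := hS.lip _ _ _ hx (n + 1) (le_refl _) j (by omega)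
    rw [upd_new, upd_old _ _ hj, le_div_iff₀ (by norm_num)] at h1
    have h2 : G.D (n + 1) j = d j := extD_new (by omega)
    rw [h2] at h1
    linarith
  refine ⟨s.ext (n + 1) x u' e' v z d True p, ⟨key x hlab, ?_⟩, Agr.ext _ _ _ _ _ _ _ _ _ _,
    upd_new _ _, upd_new _ _, upd_new _ _⟩
  rw [hGx]
  exact hx

theorem Full.stepB (hS : Strat (W × Ed) Good) (hX : BallProp Ed) (hW : KatProp W) {n : ℕ}
    {s : St W E Ed} (h : Full Good n s) (x : W × Ed) (v : W) :
    ∃ s', Full Good (n + 1) s' ∧ Agr n s s' ∧ s'.m (n + 1) = x ∧ s'.V (n + 1) = v := by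
  have hi := h.inv
  set p : ℕ → ℝ := fun l => 2 * dist v (s.V l) + 10 ^ 15 * dist x (s.m l) with hp
  set d : ℕ → ℝ := fun k => mn n (fun l => p l + s.D l k) with hd
  have hdle : ∀ k, ∀ l ≤ n, d k ≤ p l + s.D l k := fun k l hl => mn_le _ hl
  have hdeq : ∀ k, ∃ l ≤ n, d k = p l + s.D l k := fun k => mn_mem _ _
  have hpp : ∀ k ≤ n, ∀ l ≤ n, s.D k l ≤ p k + p l := by
    intro k hk l hl
    have h1 := hi.c3 k hk l hl
    have h2 := dist_triangle_left (s.V k) (s.V l) v
    have h3 := dist_triangle_left (s.m k) (s.m l) x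
    have h5 := mul_le_mul_of_nonneg_left h3 (by norm_num : (0:ℝ) ≤ 10 ^ 15)
    simp only [hp]
    linarith
  have ht1 : ∀ k ≤ n, ∀ l ≤ n, d k ≤ d l + s.D l k := by
    intro k hk l hl
    obtain ⟨j, hj, e⟩ := hdeq l
    have h1 := hdle k j hj
    have h2 := hi.D_tri j hj l hl k hk
    linarith
  have ht2 : ∀ k ≤ n, ∀ l ≤ n, s.D k l ≤ d k + d l := by
    intro k hk l hl
    obtain ⟨j, hj, e⟩ := hdeq k
    obtain ⟨j', hj', e'⟩ := hdeq l
    have h1 := hpp j hj j' hj'
    have h2 := hi.D_tri k hk j hj l hl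
    have h3 := hi.D_tri j hj j' hj' l hl
    have h4 := hi.D_symm k j
    linarith
  have hp1 : ∀ l, dist v (s.V l) ≤ p l := fun l => by
    have := dist_nonneg (x := v) (y := s.V l)
    have := dist_nonneg (x := x) (y := s.m l)
    simp only [hp]; nlinarith
  have hp2 : ∀ l, 10 ^ 15 * dist x (s.m l) ≤ p l := fun l => by
    have := dist_nonneg (x := v) (y := s.V l)
    simp only [hp]; linarith
  have b1 : ∀ j ≤ n, dist v (s.V j) ≤ d j := by
    intro j hj
    obtain ⟨l, hl, e⟩ := hdeq j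
    have h1 := dist_triangle v (s.V l) (s.V j)
    have h2 := hi.c1 l hl j hj
    have h3 := hp1 l
    linarith
  have b2 : ∀ j ≤ n, 10 ^ 15 * dist x (s.m j) ≤ d j := by
    intro j hj
    obtain ⟨l, hl, e⟩ := hdeq j
    have h1 := dist_triangle x (s.m l) (s.m j)
    have h2 := hi.c2 l hl j hj
    have h3 := hp2 l
    have h5 := mul_le_mul_of_nonneg_left h1 (by norm_num : (0:ℝ) ≤ 10 ^ 15)
    linarith
  have b3 : ∀ j ≤ n, d j ≤ p j := by
    intro j hj
    have h1 := hdle j j hj
    have h2 := hi.D_self j hj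
    linarith
  -- the hedged `z`
  obtain ⟨z, hz, hz1, hz2⟩ := T3_hedge n s.z hi.fin d (fun k hk l hl => by
    have h1 := hi.a3 k hk l hl
    have h2 := ht2 k hk l hl
    linarith)
  -- the new `U'`
  obtain ⟨u', hu1, hu2⟩ := kat_min hW n s.U' d (fun i hi' j hj => by
    have h1 := hi.a1 i hi' j hj
    have h2 := ht2 i hi' j hj
    linarith)
  -- the new `e'`
  obtain ⟨e', he'⟩ := hX n s.e' d (fun i hi' j hj => by
    have h1 := hi.a2 i hi' j hj
    have h2 := ht2 i hi' j hj
    linarith)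
  set s' : St W E Ed := s.ext (n + 1) x u' e' v z d False (fun _ => 0) with hs'
  have hA : Agr n s s' := Agr.ext _ _ _ _ _ _ _ _ _ _
  have hD1 : ∀ j ≤ n, s'.D (n + 1) j = d j := fun j hj => extD_new (by omega)
  have n1 : s'.U' (n + 1) = u' := upd_new _ _
  have n2 : s'.e' (n + 1) = e' := upd_new _ _
  have n3 : s'.z (n + 1) = z := upd_new _ _
  have n4 : s'.V (n + 1) = v := upd_new _ _
  have n5 : s'.m (n + 1) = x := upd_new _ _
  have hnA : ¬ s'.isA (n + 1) := by
    change ¬ Function.update s.isA (n + 1) False (n + 1)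
    rw [upd_new]; exact not_false
  have hinv : Inv (n + 1) s' := by
    refine hi.succ hA (fun i j => extD_symm hi.D_symm d i j) extD_self ?_ ?_
      (Or.inr ⟨hnA, ?_⟩) ?_ ?_ ?_ ?_ ?_ ?_ ?_ ?_
    · intro k hk l hl; rw [hD1 k hk, hD1 l hl]; exact ht1 k hk l hl
    · intro k hk l hl; rw [hD1 k hk, hD1 l hl]; exact ht2 k hk l hl
    · intro q y hy
      obtain ⟨q', hq', hy'⟩ := hz2 q y (fun k hk => by
        have := hy k hk
        rwa [hD1 k hk, hA.z k hk] at this)
      refine ⟨q', fun k hk => ?_, ?_⟩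
      · rw [hA.z k hk]; exact hq' k hk
      · rw [n3]; exact hy'
    · rw [n3]; exact hz
    · intro j hj; rw [hD1 j hj, n1]; exact hu1 j hj
    · intro j hj; rw [hD1 j hj, n2]; exact he' j hj
    · intro j hj; rw [hD1 j hj, n3]; exact hz1 j hj
    · intro j hj
      rw [hD1 j hj, n1, n2, n3]
      obtain ⟨l, hl, e⟩ := hu2 j hj
      rw [e]
      have h1 := ht1 j hj l hl
      have h2 := hi.a4 l hl j hj
      have h3 := dist_triangle_left (s.e' l) (s.e' j) e'
      have h4 := dist_triangle_left (s.z l) (s.z j) z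
      have h5 := mul_le_mul_of_nonneg_left h4 (by norm_num : (0:ℝ) ≤ 10 ^ 15)
      have h6 := he' l hl
      have h7 := hz1 l hl
      nlinarith
    · intro j hj; rw [hD1 j hj, n4]; exact b1 j hj
    · intro j hj; rw [hD1 j hj, n5]; exact b2 j hj
    · intro j hj; rw [hD1 j hj, n4, n5]; exact b3 j hj
  refine ⟨s', ⟨hinv, ?_⟩, hA, n5, n4⟩
  refine hS.stepB n s'.g s'.m hinv.valid hnA ?_ ?_
  · exact hS.congr n s.g s'.g s.m s'.m hA.agree (fun i hi' => (hA.m i hi').symm) h.good
  · intro l hl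
    rw [n5, hA.m l hl]
    change dist x (s.m l) ≤ s'.D (n + 1) l / 10 ^ 15
    rw [hD1 l hl, le_div_iff₀ (by norm_num)]
    have := b2 l hl
    linarith

end P124H28
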